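import Vale.Agent.P244.F.AB

/-!
Block Far, third step: the derived quantities `u₁`, `u₂`, `Z₃` at the point `y = s³`.
-/

namespace Vale.Agent.P244

open scoped ContDiff Topology
open Set Filter Real

noncomputable section

variable {κ : Cst}

theorem far_kk (r : Rn κ) {t : ℝ} (ht : t ∈ r.I) : 1 ≤ r.S.kk t (r.s ^ 3) := by
  have h := ((r.tr ht).I (r.s ^ 3) ⟨(pow_pos r.hs 3).le, le_rfl⟩).k
  linarith

theorem far_s3 {s : ℝ} (hs : 0 < s) (h : s ≤ 1 / 10) : s ^ 3 ≤ 1 / 2 :=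
  (pow_le_pow_left₀ hs.le h 3).trans (by norm_num)

/-- The context at the point `s³`. -/
def cPt (κ : Cst) (n : ℕ) (C : ℝ → ℝ) (s : ℝ) : Ctx (Ix (FQ (κ := κ) n C s)) where
  cf := fun _ => 1
  J := fun i => {y | y ∈ Ioo (0 : ℝ) 1 ∧ 0 < i.1.1.S.kk i.1.2 y}
  Ω := fun i => {i.1.1.s ^ 3}
  N := fun _ _ => 1
  sm := contDiff_const
  ro := fun i => i.1.1.sol.ro_kk i.2.2
  sub := fun i y hy => by
    rw [mem_singleton_iff.1 hy]
    exact ⟨⟨pow_pos i.1.1.hs 3, (far_s3 i.1.1.hs i.2.1.le).trans_lt (by norm_num)⟩,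
      one_pos.trans_le (far_kk _ i.2.2)⟩
  one := fun _ _ _ => le_rfl

section

variable {m n : ℕ} {C : ℝ → ℝ} {s : ℝ} (hs : 0 < s)
  (hA : FC (cPt κ m C s) (n + 1) fun r => r.S.A) (hβ : FC (cPt κ m C s) (n + 1) fun r => r.S.β)

include hA hβ

theorem fc_kk : FC (cPt κ m C s) n fun r => r.S.kk :=
  (((hA.dX.poly (φ := fun y => 1 - 2 * y) (by fun_prop)).add hA.dX).cmul 2).add hβ.dX

theorem fc_kk_inv : FC (cPt κ m C s) n fun r t y => (r.S.kk t y)⁻¹ :=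
  (fc_kk hA hβ).pos far_inv (fun _ _ hy => hy.2) one_pos fun i y hy => by
    rw [mem_singleton_iff.1 hy]
    exact far_kk _ i.2.2

theorem fc_KK : FC (cPt κ m C s) n fun r => r.S.KK :=
  (hA.pred.poly (φ := fun y => y * (1 - y)) (by fun_prop)).mul ((hA.pred.cmul 2).add hβ.pred).exp

include hs in
theorem fc_rho {φ : ℝ → ℝ} (hφ : ContDiffOn ℝ ∞ φ (Ioi 0)) :
    FC (cPt κ m C s) n fun r t y => φ (r.S.KK t y) := by
  obtain ⟨a, a0, ha⟩ := ((hA.cmul 2).add hβ).exp_lb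
  refine (fc_KK hA hβ).pos hφ (fun i _ hy => i.1.1.S.KK_pos hy.1)
    (a := s ^ 3 * (1 / 2) * a) (by positivity) fun i y hy => ?_
  have e : y = s ^ 3 := by rw [mem_singleton_iff.1 hy, i.2.1.e]
  have h3 := far_s3 hs (i.2.1.e ▸ i.2.1.le)
  refine mul_le_mul (mul_le_mul e.ge (by linarith) (by norm_num) (e ▸ (pow_pos hs 3).le))
    (ha i y hy) a0.le (mul_nonneg (e ▸ (pow_pos hs 3).le) (by linarith))

theorem fc_u1 : FC (cPt κ m C s) n fun r => r.S.u1 := by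
  obtain ⟨a, a0, ha⟩ := (hβ.cmul 2).exp_lb
  have sg : FC (cPt κ m C s) n fun r t y => (r.S.sg t y)⁻¹ :=
    (hβ.pred.tau.add (hβ.pred.cmul 2).exp).pos far_inv
      (fun i _ _ => add_pos (i.1.1.tau_pos i.2.2) (exp_pos _)) a0 fun i y hy =>
        (ha i y hy).trans (le_add_of_nonneg_left (i.1.1.tau_pos i.2.2).le)
  refine ((((hA.pred.cmul (-2)).exp.cmul 2).mul (((hβ.dY.cmul 3).mul (hβ.pred.cmul 3).exp).sub
    (((fc_kk hA hβ).cmul (1 / 2)).mul ((hA.pred.cmul 2).add hβ.pred).exp))).mul sg.sq).congr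
    fun r t y => ?_
  simp only [St.u1, St.HH]
  ring

theorem fc_u2 : FC (cPt κ m C s) n fun r => r.S.u2 := by
  have a : FC (cPt κ m C s) n fun _ _ y => (1 - y)⁻¹ :=
    (hA.pred.poly (φ := fun y => 1 - y) (by fun_prop)).pos far_inv
      (fun _ _ hy => sub_pos.2 hy.1.2) (a := 1 / 2) (by norm_num) fun i y hy => by
        rw [mem_singleton_iff.1 hy]
        linarith [far_s3 i.1.1.hs i.2.1.le]
  refine (((hA.pred.cmul (-2)).exp.mul (((hA.dY.add hβ.dY).cmul 6).sub (a.cmul 6))).sub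
    (hβ.pred.cmul (-2)).exp).congr fun r t y => ?_
  simp only [St.u2, div_eq_mul_inv]

include hs in
theorem fc_div {g : Rn κ → Fn} (h : FC (cPt κ m C s) n g) :
    FC (cPt κ m C s) n fun r t y => 3 * g r t y / (2 * r.S.kk t y * r.S.rho t y) := by
  refine (((h.cmul (3 / 2)).mul (fc_kk_inv hA hβ)).mul (fc_rho hs hA hβ far_rpow_inv)).congr
    fun r t y => ?_
  simp only [St.rho]
  ring

include hs in
theorem fc_Z1 : FC (cPt κ m C s) n fun r => r.S.Z1 := by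
  have ρ : FC (cPt κ m C s) n fun r => r.S.rho := fc_rho hs hA hβ far_rpow
  have nn : FC (cPt κ m C s) n fun r => r.S.nn :=
    ((hβ.dX.cmul 3).mul (hβ.pred.cmul 3).exp).sub ((fc_kk hA hβ).mul (fc_KK hA hβ))
  exact (fc_div hs hA hβ nn).sub (((ρ.tau.sq.cmul (-(27 / 40))).add
    ((ρ.tau.cmul (243 / 1120)).mul ρ)).sub (ρ.sq.cmul (243 / 17920)))

end

theorem fc_pt {n : ℕ} {C : ℝ → ℝ} {s : ℝ} (hs : 0 < s) :
    FC (cPt κ (n + 2) C s) n (fun r => r.S.A) ∧ FC (cPt κ (n + 2) C s) n fun r => r.S.β :=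
  fc_AB hs rfl (fun _ _ => rfl) fun i y hy => by
    rw [mem_singleton_iff.1 hy]
    exact ⟨le_rfl, (far_s3 i.1.1.hs i.2.1.le).trans (by norm_num)⟩

theorem far_u' (hκ : κ.Adm) (n : ℕ) {ε : ℝ} (hε : 0 < ε) : ∀ᶠ r in fam κ, ∀ i ≤ n, ∀ t ∈ r.I,
    |dX^[i] r.S.u1 t (r.s ^ 3) - dX^[i] r.S.u1 0 (r.s ^ 3)| ≤ ε ∧
      |dX^[i] r.S.u2 t (r.s ^ 3) - dX^[i] r.S.u2 0 (r.s ^ 3)| ≤ ε := by
  refine (eventually_all_finite (finite_le_nat n)).2 fun i _ => ?_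
  have h1 := far_fin hκ (0 + i + 1 + 2) (Ω := fun s => {s ^ 3}) (g := fun r => dX^[i] r.S.u1)
    (fun C s hs => ⟨cPt κ _ C s, fun _ => rfl, (fc_u1 (fc_pt hs).1 (fc_pt hs).2).dX_iter i⟩) hε
  have h2 := far_fin hκ (0 + i + 1 + 2) (Ω := fun s => {s ^ 3}) (g := fun r => dX^[i] r.S.u2)
    (fun C s hs => ⟨cPt κ _ C s, fun _ => rfl, (fc_u2 (fc_pt hs).1 (fc_pt hs).2).dX_iter i⟩) hε
  filter_upwards [h1, h2] with r a b t ht
  exact ⟨a t ht _ rfl, b t ht _ rfl⟩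

theorem far_Z3' (hκ : κ.Adm) {ε : ℝ} (hε : 0 < ε) : ∀ᶠ r in fam κ, ∀ t ∈ r.I,
    |r.S.Z3 t (r.s ^ 3) - r.S.Z3 0 (r.s ^ 3)| ≤ ε := by
  have h1 := far_fin hκ (3 + 2) (Ω := fun s => {s ^ 3}) (g := fun r => r.S.Z3)
    (fun C s hs => ⟨cPt κ _ C s, fun _ => rfl, by
      obtain ⟨a, b⟩ := fc_pt (κ := κ) (n := 3) (C := C) hs
      exact fc_div hs a.pred.pred b.pred.pred (fc_div hs a.pred b.pred (fc_Z1 hs a b).dX).dX⟩) hε
  filter_upwards [h1] with r a t ht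
  exact a t ht _ rfl

end

end Vale.Agent.P244
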