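import Vale.Agent.P244.F.Bd

/-!
Block Far, second step: `A` and `β` are in the class `FC`; the final mean value argument.
-/

namespace Vale.Agent.P244

open scoped ContDiff Topology
open Set Filter Real

noncomputable section

variable {κ : Cst}

/-- The hypotheses on the runs. -/
structure FQ (n : ℕ) (C : ℝ → ℝ) (s : ℝ) (r : Rn κ) : Prop where
  e : r.s = s
  le : r.s ≤ 1 / 10
  bd : ∀ i ≤ n, ∀ t ∈ r.I, ∀ y ∈ Icc (r.s ^ 3) 1,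
    |dY^[i] r.S.A t y| ≤ C r.s ∧ |dY^[i] r.S.β t y| ≤ C r.s
  bas : ∀ t ∈ r.I, ∀ y ∈ Icc (0 : ℝ) 1, BasG κ r.S t y

theorem far_fin (hκ : κ.Adm) (n : ℕ) {Ω : ℝ → Set ℝ} {g : Rn κ → Fn}
    (h : ∀ C s, 0 < s → ∃ c : Ctx (Ix (FQ (κ := κ) n C s)), (∀ i, c.Ω i = Ω i.1.1.s) ∧ FC c 0 g)
    {ε : ℝ} (hε : 0 < ε) :
    ∀ᶠ r in fam κ, ∀ t ∈ r.I, ∀ y ∈ Ω r.s, |g r t y - g r 0 y| ≤ ε := by
  obtain ⟨C, hC⟩ := far_bd' hκ n
  obtain ⟨M, hM⟩ := ev_choose (p := fun M r => ∀ t ∈ r.I, ∀ y ∈ Ω r.s,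
    |g r t y - g r 0 y| ≤ M * r.S.τ₀)
    ((ev_s κ (by norm_num : (0 : ℝ) < 1 / 10)).and (hC.and (bas_G hκ))) fun s hs => by
      obtain ⟨c, hc, hg⟩ := h C s hs
      obtain ⟨M, hM⟩ := hg.mv
      exact ⟨M, fun r e hr t ht y hy => hM r ⟨e, hr.1, hr.2.1, hr.2.2⟩ y
        (fun t ht => by rw [hc]; exact hy) t ht⟩
  filter_upwards [hM, ev_mul_tau κ M (ε := fun _ => ε) fun _ _ => hε] with r h1 h2 t ht y hy
  exact (h1 t ht y hy).trans h2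

theorem fc_AB {n : ℕ} {C : ℝ → ℝ} {s : ℝ} {c : Ctx (Ix (FQ (κ := κ) (n + 2) C s))} (hs : 0 < s)
    (hc : c.cf = fun _ => 1) (hN : ∀ i y, c.N i y = 1) (hΩ : ∀ i, c.Ω i ⊆ Icc (i.1.1.s ^ 3) 1) :
    FC c n (fun r => r.S.A) ∧ FC c n fun r => r.S.β := by
  have k : ∀ g : Rn κ → Fn, (∀ r, Sm r.I (g r)) → (∀ r, FQ (n + 2) C s r → ∀ i ≤ n + 2, ∀ t ∈ r.I,
      ∀ y ∈ Icc (r.s ^ 3) 1, |dY^[i] (g r) t y| ≤ C s) →
      c.Sy (n + 2) (fun _ _ => 1) fun i => g i.1.1 i.1.2 := fun g h1 h2 => by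
    have b : ∀ k ≤ n + 2, c.Bd (fun _ _ => 1) (c.D^[k] fun i => g i.1.1 i.1.2) :=
      fun k hk => Ctx.bd_one (C := C s) fun i y hy => by
        rw [far_D_iter hc (fun i => g i.1.1) fun i => i.1.2]
        exact h2 _ i.2.1 k hk _ i.2.2 y (hΩ i hy)
    exact Ctx.sy_of_iter (fun i y hy => (h1 _).slice i.2.2 y (c.ro i y hy).1)
      (fun k hk => b k hk.le) (b _ le_rfl).toN
  have a0 := k (fun r => r.S.A) (fun r => r.sol.sm_A) fun r hr i hi t ht y hy =>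
    hr.e ▸ (hr.bd i hi t ht y hy).1
  have b0 := k (fun r => r.S.β) (fun r => r.sol.sm_β) fun r hr i hi t ht y hy =>
    hr.e ▸ (hr.bd i hi t ht y hy).2
  have a1 := a0.D
  have b1 := b0.D
  rw [far_D hc (fun i => i.1.1.S.A) fun i => i.1.2] at a1
  rw [far_D hc (fun i => i.1.1.S.β) fun i => i.1.2] at b1
  have a2 := a1.D
  have b2 := b1.D
  rw [far_D hc (fun i => dY i.1.1.S.A) fun i => i.1.2] at a2
  rw [far_D hc (fun i => dY i.1.1.S.β) fun i => i.1.2] at b2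
  replace a0 := a0.pred.pred
  replace b0 := b0.pred.pred
  replace a1 := a1.pred
  replace b1 := b1.pred
  have ea := (a0.cmul (-2)).exp1 hN
  have eb := (b0.cmul (-2)).exp1 hN
  have hB : c.Sy n (fun _ _ => 1) fun i => i.1.1.S.B i.1.2 := by
    refine Ctx.Sy.pred (Ctx.sy_succ (fun i y hy => i.1.1.sol.sm_B.slice i.2.2 y (c.ro i y hy).1)
      (Ctx.bd_one (C := 1800 * κ.A1 ^ 2 / s ^ 3) fun i y hy => ?_) ?_)
    · have hy' := hΩ i hy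
      have s3 := pow_pos hs 3
      rw [i.2.1.e] at hy'
      obtain ⟨h1, h2⟩ := (i.2.1.bas _ i.2.2 y ⟨s3.le.trans hy'.1, hy'.2⟩).B
      rw [abs_of_nonneg h1, le_div_iff₀ s3]
      nlinarith [hy'.1]
    · rw [far_D hc (fun i => i.1.1.S.B) fun i => i.1.2]
      refine ((ea.cmul (-2)).fmul hN (((a1.fmul hN a1).cmul 4).add
        ((b1.fmul hN b1).cmul 5))).congr fun i y hy => ?_
      rw [i.1.1.sol.sol.eqB _ i.2.2 y (c.ro i y hy).1]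
      ring
  have p : ∀ {φ : ℝ → ℝ}, ContDiff ℝ ∞ φ → c.Sy n (fun _ _ => 1) fun _ y => φ y :=
    fun h => Ctx.sy_poly h
  have p1 := p (φ := fun y => 4 * (y * (1 - y))) (by fun_prop)
  have p2 := p (φ := fun y => 12 * (1 - 2 * y)) (by fun_prop)
  have p3 := p (φ := fun y => 2 * (y * (1 - y))) (by fun_prop)
  have p4 := p (φ := fun y => 1 - 2 * y) (by fun_prop)
  have p5 := p (φ := fun _ => 20) contDiff_const
  refine ⟨⟨hc, hN, fun i y hy => i.1.1.sol.sm_A.smAt i.2.2 (c.ro i y hy).1, a0, ?_⟩,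
    ⟨hc, hN, fun i y hy => i.1.1.sol.sm_β.smAt i.2.2 (c.ro i y hy).1, b0, ?_⟩⟩
  · exact ((ea.fmul hN (((p1.fmul hN a2).add (p2.fmul hN a1)).sub p5)).add
      (hB.fmul hN (p4.add (p3.fmul hN a1)))).congr fun i y hy =>
        dT_eq i.1.1.ti i.2.2 (i.1.1.sol.sol.eqA _ i.2.2 y (c.ro i y hy).1)
  · exact (((ea.fmul hN ((p1.fmul hN b2).add (p2.fmul hN b1))).add
      ((p3.fmul hN hB).fmul hN b1)).sub (eb.cmul 4)).congr fun i y hy =>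
        dT_eq i.1.1.ti i.2.2 (i.1.1.sol.sol.eqβ _ i.2.2 y (c.ro i y hy).1)

/-- The context on `[s³, 1]`. -/
def cFa (q : Rn κ → Prop) : Ctx (Ix q) where
  cf := fun _ => 1
  J := fun _ => Icc 0 1
  Ω := fun i => Icc (i.1.1.s ^ 3) 1
  N := fun _ _ => 1
  sm := contDiff_const
  ro := fun _ => ro_Icc
  sub := fun i _ hy => ⟨(pow_pos i.1.1.hs 3).le.trans hy.1, hy.2⟩
  one := fun _ _ _ => le_rfl

theorem far_X' (hκ : κ.Adm) {ε : ℝ} (hε : 0 < ε) : ∀ᶠ r in fam κ, ∀ i ≤ 2, ∀ t ∈ r.I,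
    ∀ y ∈ Icc (r.s ^ 3) 1, |XX^[i] r.S.A t y - XX^[i] r.S.A 0 y| ≤ ε ∧
      |XX^[i] r.S.β t y - XX^[i] r.S.β 0 y| ≤ ε := by
  refine (eventually_all_finite (finite_le_nat 2)).2 fun i _ => ?_
  have h1 := far_fin hκ (0 + i + 2) (Ω := fun s => Icc (s ^ 3) 1) (g := fun r => XX^[i] r.S.A)
    (fun C s hs => ⟨cFa _, fun _ => rfl,
      (fc_AB hs rfl (fun _ _ => rfl) fun _ => subset_rfl).1.XX_iter i⟩) hε
  have h2 := far_fin hκ (0 + i + 2) (Ω := fun s => Icc (s ^ 3) 1) (g := fun r => XX^[i] r.S.β)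
    (fun C s hs => ⟨cFa _, fun _ => rfl,
      (fc_AB hs rfl (fun _ _ => rfl) fun _ => subset_rfl).2.XX_iter i⟩) hε
  filter_upwards [h1, h2] with r a b t ht y hy
  exact ⟨a t ht y hy, b t ht y hy⟩

end

end Vale.Agent.P244
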