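import Vale.Agent.P244.A.Fam
import Vale.Agent.P244.A.Id0

/-!
Kit for the block Far: the class `FC` of functions whose `y`-derivatives and whose time derivative's
`y`-derivatives are bounded, uniformly in a family of runs.
-/

namespace Vale.Agent.P244

open scoped ContDiff Topology
open Set Filter Real

noncomputable section

namespace Ctx

variable {ι : Type} {c : Ctx ι} {n : ℕ} {g g' : ι → ℝ → ℝ}

theorem Sy.bd1 (hN : ∀ i y, c.N i y = 1) (h : c.Sy n (fun _ _ => 1) g) :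
    ∃ C, 0 ≤ C ∧ ∀ i, ∀ y ∈ c.Ω i, |g i y| ≤ C := by
  obtain ⟨C, C0, hC⟩ := (h.of_le (Nat.zero_le n)).top
  exact ⟨C, C0, fun i y hy => by simpa [hN] using hC i y hy⟩

theorem bd_one {C : ℝ} (h : ∀ i, ∀ y ∈ c.Ω i, |g i y| ≤ C) : c.Bd (fun _ _ => 1) g :=
  ⟨max C 0, le_max_right _ _, fun i y hy => by
    rw [abs_one, mul_one]
    exact (h i y hy).trans (le_max_left _ _)⟩

theorem Sy.fmul (hN : ∀ i y, c.N i y = 1) (h : c.Sy n (fun _ _ => 1) g)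
    (h' : c.Sy n (fun _ _ => 1) g') : c.Sy n (fun _ _ => 1) fun i y => g i y * g' i y :=
  (h.mul_one hN h').mono ((Bd.refl' c _).congr' (fun _ _ _ => _root_.mul_one _) fun _ _ _ => rfl)

theorem Sy.comp (hN : ∀ i y, c.N i y = 1) {U K : Set ℝ} (hU : IsOpen U) (hK : IsCompact K)
    (KU : K ⊆ U) {φ : ℝ → ℝ} (hφ : ContDiffOn ℝ ∞ φ U) (hJ : ∀ i, ∀ y ∈ c.J i, g i y ∈ U)
    (hΩ : ∀ i, ∀ y ∈ c.Ω i, g i y ∈ K) (h : c.Sy n (fun _ _ => 1) g) :
    c.Sy n (fun _ _ => 1) fun i y => φ (g i y) := by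
  have hg : c.Smo g := h.1
  have hs : ∀ {φ : ℝ → ℝ}, ContDiffOn ℝ ∞ φ U → c.Smo fun i y => φ (g i y) := fun hφ i y hy =>
    (hφ.contDiffAt (hU.mem_nhds (hJ i y hy))).comp_contDiffWithinAt y (hg i y hy)
  have hb : ∀ {φ : ℝ → ℝ}, ContDiffOn ℝ ∞ φ U → c.Bd (fun _ _ => 1) fun i y => φ (g i y) :=
    fun hφ => by
      obtain ⟨C, hC⟩ := hK.exists_bound_of_continuousOn (hφ.continuousOn.mono KU)
      exact bd_one fun i y hy => hC _ (hΩ i y hy)
  induction n generalizing φ with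
  | zero => exact ⟨hs hφ, (hb hφ).toN⟩
  | succ n ih =>
    have hd := (contDiffOn_infty_iff_deriv_of_isOpen hU).1 hφ
    refine sy_succ (hs hφ) (hb hφ) (((ih hd.2 h.pred).fmul hN h.D).congr fun i y hy => ?_)
    have e := ((hd.1.differentiableAt (hU.mem_nhds (hJ i y hy))).hasDerivAt.comp_hasDerivWithinAt y
      (hg.diff hy).hasDerivWithinAt).derivWithin (uniqueDiffOn_Icc zero_lt_one y (c.ro i y hy).1)
    simp only [Ctx.D, dl]
    rw [show (fun y => φ (g i y)) = φ ∘ g i from rfl, e]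
    ring

theorem Sy.exp1 (hN : ∀ i y, c.N i y = 1) (h : c.Sy n (fun _ _ => 1) g) :
    c.Sy n (fun _ _ => 1) fun i y => exp (g i y) := by
  obtain ⟨C, -, hC⟩ := h.bd1 hN
  exact h.comp hN isOpen_univ (isCompact_Icc (a := -C) (b := C)) (subset_univ _)
    contDiff_exp.contDiffOn (fun _ _ _ => trivial) fun i y hy => abs_le.1 (hC i y hy)

theorem Sy.pos1 (hN : ∀ i y, c.N i y = 1) (h : c.Sy n (fun _ _ => 1) g) {φ : ℝ → ℝ}
    (hφ : ContDiffOn ℝ ∞ φ (Ioi 0)) (hJ : ∀ i, ∀ y ∈ c.J i, 0 < g i y) {a : ℝ} (ha : 0 < a)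
    (hΩ : ∀ i, ∀ y ∈ c.Ω i, a ≤ g i y) : c.Sy n (fun _ _ => 1) fun i y => φ (g i y) := by
  obtain ⟨C, -, hC⟩ := h.bd1 hN
  exact h.comp hN isOpen_Ioi (isCompact_Icc (a := a) (b := C)) (fun _ hx => ha.trans_le hx.1) hφ hJ
    fun i y hy => ⟨hΩ i y hy, (le_abs_self _).trans (hC i y hy)⟩

end Ctx

theorem far_inv : ContDiffOn ℝ ∞ (fun x : ℝ => x⁻¹) (Ioi 0) :=
  contDiffOn_id.inv fun _ hx => ne_of_gt hx

theorem far_rpow : ContDiffOn ℝ ∞ (fun x : ℝ => x ^ (2 / 3 : ℝ)) (Ioi 0) :=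
  contDiffOn_id.rpow_const_of_ne fun _ hx => ne_of_gt hx

theorem far_rpow_inv : ContDiffOn ℝ ∞ (fun x : ℝ => (x ^ (2 / 3 : ℝ))⁻¹) (Ioi 0) :=
  far_rpow.inv fun _ hx => (rpow_pos_of_pos hx _).ne'

variable {κ : Cst} {q : Rn κ → Prop}

/-- The function and its time derivative have `n` bounded `y`-derivatives. -/
structure FC (c : Ctx (Ix q)) (n : ℕ) (g : Rn κ → Fn) : Prop where
  cf : c.cf = fun _ => 1
  N : ∀ i y, c.N i y = 1
  sm : ∀ i : Ix q, ∀ y ∈ c.J i, SmAt i.1.1.I (g i.1.1) i.1.2 y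
  v : c.Sy n (fun _ _ => 1) fun i => g i.1.1 i.1.2
  d : c.Sy n (fun _ _ => 1) fun i => dT i.1.1.I (g i.1.1) i.1.2

theorem far_D {c : Ctx (Ix q)} (hc : c.cf = fun _ => 1) (g : Ix q → Fn) (τ : Ix q → ℝ) :
    c.D (fun i => g i (τ i)) = fun i => dY (g i) (τ i) := by
  funext i y
  simp only [Ctx.D, dl, hc, one_mul, dY]

theorem far_D_iter {c : Ctx (Ix q)} (hc : c.cf = fun _ => 1) (g : Ix q → Fn) (τ : Ix q → ℝ)
    (k : ℕ) : c.D^[k] (fun i => g i (τ i)) = fun i => dY^[k] (g i) (τ i) := by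
  induction k with
  | zero => rfl
  | succ k ih =>
    rw [Function.iterate_succ_apply', ih, far_D hc]
    simp only [Function.iterate_succ_apply']

namespace FC

variable {c : Ctx (Ix q)} {n : ℕ} {g g' : Rn κ → Fn}

theorem of_le {m : ℕ} (h : FC c n g) (hm : m ≤ n) : FC c m g :=
  ⟨h.cf, h.N, h.sm, h.v.of_le hm, h.d.of_le hm⟩

theorem pred (h : FC c (n + 1) g) : FC c n g := h.of_le n.le_succ

theorem congr (h : FC c n g) (e : ∀ r t y, g' r t y = g r t y) : FC c n g' := by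
  have : g' = g := by
    funext r t y
    exact e r t y
  rwa [this]

theorem add (h : FC c n g) (h' : FC c n g') : FC c n fun r t y => g r t y + g' r t y :=
  ⟨h.cf, h.N, fun i y hy => (h.sm i y hy).add (h'.sm i y hy), h.v.add h'.v,
    (h.d.add h'.d).congr fun i y hy =>
      dT_add i.1.1.ti i.2.2 (c.ro i y hy).1 (h.sm i y hy) (h'.sm i y hy)⟩

theorem sub (h : FC c n g) (h' : FC c n g') : FC c n fun r t y => g r t y - g' r t y :=
  ⟨h.cf, h.N, fun i y hy => (h.sm i y hy).sub (h'.sm i y hy), h.v.sub h'.v,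
    (h.d.sub h'.d).congr fun i y hy =>
      dT_sub i.1.1.ti i.2.2 (c.ro i y hy).1 (h.sm i y hy) (h'.sm i y hy)⟩

theorem mul (h : FC c n g) (h' : FC c n g') : FC c n fun r t y => g r t y * g' r t y :=
  ⟨h.cf, h.N, fun i y hy => (h.sm i y hy).mul (h'.sm i y hy), h.v.fmul h.N h'.v,
    ((h.d.fmul h.N h'.v).add (h.v.fmul h.N h'.d)).congr fun i y hy =>
      dT_mul i.1.1.ti i.2.2 (c.ro i y hy).1 (h.sm i y hy) (h'.sm i y hy)⟩

/-- Smooth functions of `y`. -/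
theorem poly (h : FC c n g) {φ : ℝ → ℝ} (hφ : ContDiff ℝ ∞ φ) : FC c n fun _ _ y => φ y :=
  ⟨h.cf, h.N, fun _ _ _ => (hφ.comp contDiff_snd).contDiffWithinAt, Ctx.sy_poly hφ,
    (Ctx.sy_poly (φ := fun _ => 0) contDiff_const).congr fun i _ _ =>
      dT_eq i.1.1.ti i.2.2 (hasDerivWithinAt_const _ _ _)⟩

theorem const (h : FC c n g) (a : ℝ) : FC c n fun _ _ _ => a := h.poly contDiff_const

theorem cmul (h : FC c n g) (a : ℝ) : FC c n fun r t y => a * g r t y := (h.const a).mul h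

theorem sq (h : FC c n g) : FC c n fun r t y => g r t y ^ 2 := (h.mul h).congr fun _ _ _ => pow_two _

/-- The remaining time. -/
theorem tau (h : FC c n g) : FC c n fun r t _ => r.S.τ₀ - t :=
  ⟨h.cf, h.N, fun _ _ _ => (smAt_const _).sub smAt_t,
    Ctx.sy_const (fun i : Ix q => i.1.1.S.τ₀ - i.1.2) (Ctx.bd_one (C := 1) fun i _ _ => by
      have a := i.1.1.tau_pos i.2.2
      have b := (i.1.1.tau_le i.2.2).trans i.1.1.sol.le
      exact abs_le.2 ⟨by linarith, b⟩),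
    (Ctx.sy_poly (φ := fun _ => -1) contDiff_const).congr fun i _ _ =>
      dT_eq i.1.1.ti i.2.2 ((hasDerivWithinAt_id _ _).const_sub _)⟩

theorem comp (h : FC c n g) {U K : Set ℝ} (hU : IsOpen U) (hK : IsCompact K)
    (KU : K ⊆ U) {φ : ℝ → ℝ} (hφ : ContDiffOn ℝ ∞ φ U)
    (hJ : ∀ i : Ix q, ∀ y ∈ c.J i, g i.1.1 i.1.2 y ∈ U)
    (hΩ : ∀ i : Ix q, ∀ y ∈ c.Ω i, g i.1.1 i.1.2 y ∈ K) : FC c n fun r t y => φ (g r t y) := by
  have hd := (contDiffOn_infty_iff_deriv_of_isOpen hU).1 hφ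
  exact ⟨h.cf, h.N, fun i y hy =>
    (hφ.contDiffAt (hU.mem_nhds (hJ i y hy))).comp_contDiffWithinAt
      (f := fun p : ℝ × ℝ => g i.1.1 p.1 p.2) (i.1.2, y) (h.sm i y hy),
    h.v.comp h.N hU hK KU hφ hJ hΩ,
    ((h.v.comp h.N hU hK KU hd.2 hJ hΩ).fmul h.N h.d).congr fun i y hy =>
      dT_comp i.1.1.ti i.2.2 (c.ro i y hy).1 (h.sm i y hy)
        (hd.1.differentiableAt (hU.mem_nhds (hJ i y hy))).hasDerivAt⟩

theorem exp (h : FC c n g) : FC c n fun r t y => exp (g r t y) := by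
  obtain ⟨C, -, hC⟩ := h.v.bd1 h.N
  exact h.comp isOpen_univ (isCompact_Icc (a := -C) (b := C)) (subset_univ _)
    contDiff_exp.contDiffOn (fun _ _ _ => trivial) fun i y hy => abs_le.1 (hC i y hy)

theorem exp_lb (h : FC c n g) :
    ∃ a > 0, ∀ i : Ix q, ∀ y ∈ c.Ω i, a ≤ Real.exp (g i.1.1 i.1.2 y) := by
  obtain ⟨C, -, hC⟩ := h.v.bd1 h.N
  exact ⟨Real.exp (-C), exp_pos _, fun i y hy => exp_le_exp.2 (abs_le.1 (hC i y hy)).1⟩

theorem pos (h : FC c n g) {φ : ℝ → ℝ} (hφ : ContDiffOn ℝ ∞ φ (Ioi 0))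
    (hJ : ∀ i : Ix q, ∀ y ∈ c.J i, 0 < g i.1.1 i.1.2 y) {a : ℝ} (ha : 0 < a)
    (hΩ : ∀ i : Ix q, ∀ y ∈ c.Ω i, a ≤ g i.1.1 i.1.2 y) : FC c n fun r t y => φ (g r t y) := by
  obtain ⟨C, -, hC⟩ := h.v.bd1 h.N
  exact h.comp isOpen_Ioi (isCompact_Icc (a := a) (b := C)) (fun _ hx => ha.trans_le hx.1) hφ hJ
    fun i y hy => ⟨hΩ i y hy, (le_abs_self _).trans (hC i y hy)⟩

theorem dY (h : FC c (n + 1) g) : FC c n fun r => dY (g r) := by
  have a := h.v.D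
  have b := h.d.D
  rw [far_D h.cf (fun i : Ix q => g i.1.1) fun i => i.1.2] at a
  rw [far_D h.cf (fun i : Ix q => dT i.1.1.I (g i.1.1)) fun i => i.1.2] at b
  exact ⟨h.cf, h.N, fun i y hy => (h.sm i y hy).dY i.1.1.ti i.2.2 (c.ro i y hy).1, a,
    b.congr fun i y hy => (h.sm i y hy).comm i.1.1.ti i.2.2 (c.ro i y hy).1⟩

theorem dX (h : FC c (n + 1) g) : FC c n fun r => dX (g r) :=
  (h.dY.poly (φ := fun y => 2 * (y * (1 - y))) (by fun_prop)).mul h.dY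

theorem XX (h : FC c (n + 1) g) : FC c n fun r => XX (g r) :=
  (h.dY.poly (φ := fun y => y) contDiff_id).mul h.dY

theorem dX_iter (k : ℕ) (h : FC c (n + k) g) : FC c n fun r => P244.dX^[k] (g r) := by
  induction k generalizing g with
  | zero => exact h
  | succ k ih => exact ih h.dX

theorem XX_iter (k : ℕ) (h : FC c (n + k) g) : FC c n fun r => P244.XX^[k] (g r) := by
  induction k generalizing g with
  | zero => exact h
  | succ k ih => exact ih h.XX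

/-- The mean value inequality in time. -/
theorem mv (h : FC c n g) : ∃ C, ∀ r, ∀ hq : q r, ∀ y,
    (∀ t, ∀ ht : t ∈ r.I, y ∈ c.Ω ⟨(r, t), hq, ht⟩) → ∀ t ∈ r.I,
      |g r t y - g r 0 y| ≤ C * r.S.τ₀ := by
  obtain ⟨C, C0, hC⟩ := h.d.bd1 h.N
  refine ⟨C, fun r hq y hy t ht => ?_⟩
  have h0 : (0 : ℝ) ∈ r.I := ⟨le_rfl, r.sol.pos.le⟩
  have e := Convex.norm_image_sub_le_of_norm_hasDerivWithin_le (f := fun s => g r s y)
    (f' := fun s => dT r.I (g r) s y) (C := C) (s := r.I)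
    (fun s hs => (h.sm ⟨(r, s), hq, hs⟩ y (c.sub _ (hy s hs))).hasT
      (c.ro _ y (c.sub _ (hy s hs))).1)
    (fun s hs => hC ⟨(r, s), hq, hs⟩ y (hy s hs)) (convex_Icc _ _) h0 ht
  rw [sub_zero, Real.norm_eq_abs, Real.norm_eq_abs, abs_of_nonneg ht.1] at e
  exact e.trans (mul_le_mul_of_nonneg_left (ht.2.trans r.sol.lt.le) C0)

end FC

end

end Vale.Agent.P244
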