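import Vale.Agent.P244.A.P0
import Vale.Agent.P244.F.Kit

/-!
Block Far, first step: bounds for all `y`-derivatives of `A`, `β` on `[s³, 1]`.
-/

namespace Vale.Agent.P244

open scoped ContDiff Topology
open Set Filter Real

noncomputable section

variable {κ : Cst}

theorem far_ro : RO (Ioc 0 1) := by
  refine fun y hy => ⟨Ioc_subset_Icc_self hy, ?_⟩
  filter_upwards [self_mem_nhdsWithin, mem_nhdsWithin_of_mem_nhds (Ioi_mem_nhds hy.1)] with z h1 h2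
  exact ⟨h2, h1.2⟩

theorem far_unif {n : ℕ} {P : ℕ → ℝ → Prop} (h : ∀ i ≤ n, ∃ C, P i C)
    (m : ∀ i C C', C ≤ C' → P i C → P i C') : ∃ C, ∀ i ≤ n, P i C := by
  choose! C hC using h
  refine ⟨∑ i ∈ Finset.range (n + 1), |C i|, fun i hi => m i _ _ ((le_abs_self _).trans ?_) (hC i hi)⟩
  exact Finset.single_le_sum (f := fun i => |C i|) (fun _ _ => abs_nonneg _)
    (Finset.mem_range.2 (Nat.lt_succ_of_le hi))

theorem far_zero {r : Rn κ} (hd : DOk κ.δ r.S r.c) {t : ℝ} (ht : t ∈ r.I) {y : ℝ}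
    (hy : y ∈ Icc (r.s ^ 3) 1) :
    |r.S.A t y| ≤ |log (r.s ^ 3 / 2)| + 2 ∧ |r.S.β t y| ≤ |log (r.s ^ 3 / 2)| + 2 := by
  have s3 := pow_pos r.hs 3
  obtain ⟨h1, h2, h3⟩ := data_H hd (y := y) ⟨s3.le.trans hy.1, hy.2⟩
  obtain ⟨f1, f2⟩ := (r.tr ht).F2 y hy
  have τ0 := pow_pos hd.τ0 3
  have τ1 : r.S.τ₀ ^ 3 ≤ 1 := pow_le_one₀ hd.τ0.le (by linarith [hd.τ1])
  have a1 : log (r.s ^ 3 / 2) ≤ 3 * r.S.β 0 y := by
    rw [log_le_iff_le_exp (by positivity)]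
    exact le_trans (by linarith [hy.1]) h1
  have a2 : 3 * r.S.β 0 y + 1 ≤ r.S.HH 0 y := add_one_le_exp _
  have a3 := neg_abs_le (log (r.s ^ 3 / 2))
  have a4 := abs_nonneg (log (r.s ^ 3 / 2))
  rw [abs_le] at f1 f2
  constructor <;> rw [abs_le] <;> constructor <;> linarith [hy.2]

/-- The context of Euler derivatives on `[s³, 1]`. -/
def cEu (q : Rn κ → Prop) : Ctx (Ix q) where
  cf := fun y => y
  J := fun _ => Ioc 0 1
  Ω := fun i => Icc (i.1.1.s ^ 3) 1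
  N := fun _ _ => 1
  sm := contDiff_id
  ro := fun _ => far_ro
  sub := fun i _ hy => ⟨(pow_pos i.1.1.hs 3).trans_le hy.1, hy.2⟩
  one := fun _ _ _ => le_rfl

theorem far_dY {q : Rn κ → Prop} {s : ℝ} (hs : 0 < s) (hq : ∀ r, q r → r.s = s) (k m : ℕ)
    {g : Rn κ → Fn} (h : (cEu q).Sy (m + k) (fun _ _ => 1) fun i => g i.1.1 i.1.2) :
    (cEu q).Sy m (fun _ _ => 1) fun i => dY^[k] (g i.1.1) i.1.2 := by
  induction k generalizing g with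
  | zero => exact h
  | succ k ih =>
    have a : (cEu q).Sy (m + k) (fun _ _ => 1) fun _ y => y⁻¹ :=
      (Ctx.sy_poly (φ := fun y => y) contDiff_id).pos1 (fun _ _ => rfl) far_inv
        (fun _ _ hy => hy.1) (pow_pos hs 3) fun i _ hy => by
          rw [← hq _ i.2.1]
          exact hy.1
    refine ih (g := fun r => dY (g r)) ((a.fmul (fun _ _ => rfl) h.D).congr fun i y hy => ?_)
    have : y ≠ 0 := hy.1.ne'
    change dY (g i.1.1) i.1.2 y = y⁻¹ * (y * dY (g i.1.1) i.1.2 y)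
    field_simp

theorem far_key {q : Rn κ → Prop} {s : ℝ} (hs : 0 < s) (hq : ∀ r, q r → r.s = s) {n : ℕ} {M : ℝ}
    {g : Rn κ → Fn} (h1 : ∀ r, Sm r.I (g r))
    (h2 : ∀ r, q r → ∀ k ≤ n, ∀ t ∈ r.I, ∀ y ∈ Icc (r.s ^ 3) 1, |XX^[k] (g r) t y| ≤ M) :
    ∃ C, ∀ i ≤ n, ∀ r, q r → ∀ t ∈ r.I, ∀ y ∈ Icc (r.s ^ 3) 1, |dY^[i] (g r) t y| ≤ C := by
  have b : ∀ k ≤ n, (cEu q).Bd (fun _ _ => 1) ((cEu q).D^[k] fun i => g i.1.1 i.1.2) :=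
    fun k hk => Ctx.bd_one (C := M) fun i y hy => by
      rw [Ctx.D_iter]
      have e := h2 _ i.2.1 k hk _ i.2.2 y hy
      rw [XX_iter_eq_dl] at e
      exact e
  have a : (cEu q).Sy n (fun _ _ => 1) fun i => g i.1.1 i.1.2 :=
    Ctx.sy_of_iter (fun i y hy => (h1 _).slice i.2.2 y (Ioc_subset_Icc_self hy))
      (fun k hk => b k hk.le) (b n le_rfl).toN
  refine far_unif (fun i hi => ?_) fun i C C' hC h r hr t ht y hy => (h r hr t ht y hy).trans hC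
  obtain ⟨C, -, hC⟩ := (far_dY hs hq i 0 (a.of_le (by omega))).bd1 fun _ _ => rfl
  exact ⟨C, fun r hr t ht y hy => hC ⟨(r, t), hr, ht⟩ y hy⟩

theorem far_bd' (hκ : κ.Adm) (n : ℕ) : ∃ C : ℝ → ℝ, ∀ᶠ r in fam κ, ∀ i ≤ n, ∀ t ∈ r.I,
    ∀ y ∈ Icc (r.s ^ 3) 1, |dY^[i] r.S.A t y| ≤ C r.s ∧ |dY^[i] r.S.β t y| ≤ C r.s := by
  obtain ⟨C, hC⟩ := p0 hκ n
  refine ev_choose (p := fun C r => ∀ i ≤ n, ∀ t ∈ r.I, ∀ y ∈ Icc (r.s ^ 3) 1,
    |dY^[i] r.S.A t y| ≤ C ∧ |dY^[i] r.S.β t y| ≤ C) ((ev_dok hκ).and hC) fun s hs => ?_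
  have k : ∀ r : Rn κ, (r.s = s ∧ DOk κ.δ r.S r.c ∧ ∀ i, 1 ≤ i → i ≤ n → ∀ t ∈ r.I,
      ∀ y ∈ Icc (0 : ℝ) 1, |XX^[i] r.S.A t y| ≤ C ∧ |XX^[i] r.S.β t y| ≤ C) → ∀ k ≤ n, ∀ t ∈ r.I,
      ∀ y ∈ Icc (r.s ^ 3) 1, |XX^[k] r.S.A t y| ≤ max C (|log (s ^ 3 / 2)| + 2) ∧
        |XX^[k] r.S.β t y| ≤ max C (|log (s ^ 3 / 2)| + 2) := fun r hr k hk t ht y hy => by
    rcases Nat.eq_zero_or_pos k with rfl | h0
    · have e := far_zero hr.2.1 ht hy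
      rw [hr.1] at e
      exact ⟨e.1.trans (le_max_right _ _), e.2.trans (le_max_right _ _)⟩
    · have e := hr.2.2 k h0 hk t ht y ⟨(pow_pos r.hs 3).le.trans hy.1, hy.2⟩
      exact ⟨e.1.trans (le_max_left _ _), e.2.trans (le_max_left _ _)⟩
  obtain ⟨C1, h1⟩ := far_key hs (fun _ hr => hr.1) (g := fun r => r.S.A) (fun r => r.sol.sm_A)
    fun r hr i hi t ht y hy => (k r hr i hi t ht y hy).1
  obtain ⟨C2, h2⟩ := far_key hs (fun _ hr => hr.1) (g := fun r => r.S.β) (fun r => r.sol.sm_β)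
    fun r hr i hi t ht y hy => (k r hr i hi t ht y hy).2
  exact ⟨max C1 C2, fun r e hr i hi t ht y hy =>
    ⟨(h1 i hi r ⟨e, hr⟩ t ht y hy).trans (le_max_left _ _),
      (h2 i hi r ⟨e, hr⟩ t ht y hy).trans (le_max_right _ _)⟩⟩

end

end Vale.Agent.P244
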